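import Vale.Agent.P261.R2.H932.Dev
import Vale.Agent.P261.R2.H620.Gn

/-!
# P261: `H¹(H; E₀)` is torsion-free
-/

namespace Vale.Agent.P261.R2.H86

open MvPowerSeries Vale.Agent.P217 Vale.Agent.P261.R2.H932

variable {p n : ℕ} [Fact p.Prime] {Γ : FormalGroup (ZMod p)} {F : FormalGroup (P217.E0 p n)}

/-- Elements of `E₀` fixed by the `pⁿ`-th power map are determined by their residue. -/
theorem eq_of_pow_eq (hn : 1 ≤ n) {a b : P217.E0 p n} (ha : a ^ p ^ n = a) (hb : b ^ p ^ n = b)
    (hab : red p n a = red p n b) : a = b := by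
  set S : P217.E0 p n := ∑ i ∈ Finset.range (p ^ n), a ^ i * b ^ (p ^ n - 1 - i) with hS
  have h1 : S * (a - b) = a - b := by
    rw [hS, (Commute.all a b).geom_sum₂_mul, ha, hb]
  have h2 : red p n S = 0 := by
    rw [hS, map_sum]
    have h3 : ∀ i ∈ Finset.range (p ^ n), red p n (a ^ i * b ^ (p ^ n - 1 - i)) =
        red p n b ^ (p ^ n - 1) := by
      intro i hi
      rw [Finset.mem_range] at hi
      rw [map_mul, map_pow, map_pow, hab, ← pow_add]
      congr 1
      omega
    rw [Finset.sum_congr rfl h3, Finset.sum_const, Finset.card_range, nsmul_eq_mul]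
    have h4 : ((p ^ n : ℕ) : GaloisField p n) = 0 := by
      rw [Nat.cast_pow, CharP.cast_eq_zero, zero_pow (by omega)]
    rw [h4, zero_mul]
  have h5 : IsUnit (1 - S) := by
    have h6 : red p n (1 - S) ≠ 0 := by
      rw [map_sub, map_one, h2, sub_zero]
      exact one_ne_zero
    exact Vale.Agent.P217.CA.isUnit_iff_rd.2 h6
  have h6 : (1 - S) * (a - b) = 0 := by
    rw [sub_mul, one_mul, h1, sub_self]
  exact sub_eq_zero.1 ((h5.mul_right_eq_zero).1 h6)

/-- An automorphism of `E₀` which fixes the residue of `m` fixes its Teichmüller representative. -/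
theorem tch_fixed (hn : 1 ≤ n) (φ : RingAut (P217.E0 p n)) (m : P217.E0 p n)
    (h : red p n (φ m) = red p n m) : φ (tch p n (red p n m)) = tch p n (red p n m) := by
  obtain ⟨σ, hσ, -⟩ := AC.exists_unique_residue φ
  have hs : ∀ x, red p n (φ x) = σ (red p n x) := fun x => RingHom.congr_fun hσ x
  refine eq_of_pow_eq hn ?_ (tch_pow hn _) ?_
  · rw [← map_pow, tch_pow hn]
  · rw [hs, red_tch, ← hs, h]

theorem p_ne_zero : (p : P217.E0 p n) ≠ 0 := by
  intro h4
  have h5 := congrArg (MvPowerSeries.constantCoeff) h4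
  rw [map_natCast, map_zero] at h5
  exact (WittVector.p_nonzero p (GaloisField p n)) h5

theorem red_p : red p n (p : P217.E0 p n) = 0 := by
  rw [map_natCast, CharP.cast_eq_zero]

theorem heightIdeal_one : P217.heightIdeal p n 1 = Ideal.span {(p : P217.E0 p n)} := by
  rw [P217.heightIdeal, if_neg one_ne_zero]
  congr 1
  ext x
  constructor
  · rintro (h | ⟨i, hi, -⟩)
    · exact h
    · omega
  · exact fun h => Or.inl h

/-- Invariants modulo `p^N` lift. -/
theorem split (hn : 1 ≤ n) (hΓ : LT.IsHonda p n Γ) (hF : LT.IsUniversal p n Γ F)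
    (hH : LT.HeightAdapted p n F) (H : Subgroup (RingAut (P217.E0 p n)))
    (hle : H ≤ LT.actionGroup p n Γ F) (hi : H.relIndex (LT.actionGroup p n Γ F) ≠ 0) (N : ℕ) :
    ∀ m : P217.E0 p n, (∀ φ ∈ H, ∃ y, φ m - m = (p : P217.E0 p n) ^ N * y) →
      ∃ m0 y : P217.E0 p n, (∀ φ ∈ H, φ m0 = m0) ∧ m = m0 + (p : P217.E0 p n) ^ N * y := by
  have hD : IsDomain (P217.E0 p n) := NoZeroDivisors.to_isDomain _
  have hp : (p : P217.E0 p n) ≠ 0 := p_ne_zero
  induction N with
  | zero =>
    intro m _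
    exact ⟨0, m, fun φ _ => map_zero φ, by rw [pow_zero, one_mul, zero_add]⟩
  | succ N ih =>
    intro m hm
    have h1 : m - tch p n (red p n m) ∈ P217.heightIdeal p n 1 := by
      refine const_of_inv hn hΓ hF hH (H ⊓ strict p n) (inf_le_left.trans hle)
        (Subgroup.relIndex_inf_ne_zero hi (strict_index hF)) (fun φ hφ => mem_strict.1 hφ.2)
        1 le_rfl hn m fun φ hφ => ?_
      obtain ⟨y, hy⟩ := hm φ hφ.1
      rw [heightIdeal_one, hy, pow_succ', mul_assoc]
      exact Ideal.mul_mem_right _ _ (Ideal.mem_span_singleton_self _)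
    rw [heightIdeal_one, Ideal.mem_span_singleton] at h1
    obtain ⟨m', hm'⟩ := h1
    have h2 : ∀ φ ∈ H, φ (tch p n (red p n m)) = tch p n (red p n m) := by
      intro φ hφ
      refine tch_fixed hn φ m ?_
      obtain ⟨y, hy⟩ := hm φ hφ
      have h3 : φ m = m + (p : P217.E0 p n) ^ (N + 1) * y := by rw [← hy]; ring
      rw [h3, map_add, map_mul, map_pow, red_p, zero_pow (by omega), zero_mul, add_zero]
    obtain ⟨m0, y, h3, h4⟩ := ih m' fun φ hφ => by
      obtain ⟨y, hy⟩ := hm φ hφ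
      refine ⟨y, mul_left_cancel₀ hp ?_⟩
      have h5 : (p : P217.E0 p n) * φ m' = φ m - tch p n (red p n m) := by
        have h6 := congrArg φ hm'
        rw [map_sub, h2 φ hφ, map_mul, map_natCast] at h6
        exact h6.symm
      rw [mul_sub, h5, ← hm']
      calc φ m - tch p n (red p n m) - (m - tch p n (red p n m)) = φ m - m := by ring
        _ = (p : P217.E0 p n) * ((p : P217.E0 p n) ^ N * y) := by rw [hy, pow_succ', mul_assoc]
    refine ⟨tch p n (red p n m) + p * m0, y, fun φ hφ => ?_, ?_⟩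
    · rw [map_add, map_mul, map_natCast, h2 φ hφ, h3 φ hφ]
    · have h5 : m = tch p n (red p n m) + p * m' := by rw [← hm']; ring
      calc m = tch p n (red p n m) + p * m' := h5
        _ = tch p n (red p n m) + p * (m0 + (p : P217.E0 p n) ^ N * y) := by rw [← h4]
        _ = _ := by rw [pow_succ']; ring

/-- `H¹(H; E₀)` is torsion-free for every subgroup `H` of finite index in `G_n`. -/
theorem E0_torsion_free (hn : 1 ≤ n) (hΓ : LT.IsHonda p n Γ) (hF : LT.IsUniversal p n Γ F)
    (hH : LT.HeightAdapted p n F) (H : Subgroup (Gn p n F)) (hi : H.index ≠ 0)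
    (c : H → P217.E0 p n)
    (hcoc : ∀ g h : H, c (g * h) = c g + Gn.pi (g : Gn p n F) (c h)) (N : ℕ) (m : P217.E0 p n)
    (hm : ∀ g : H, (p : P217.E0 p n) ^ N * c g = Gn.pi (g : Gn p n F) m - m) :
    ∃ y, ∀ g : H, c g = Gn.pi (g : Gn p n F) y - y := by
  have hD : IsDomain (P217.E0 p n) := NoZeroDivisors.to_isDomain _
  have hp : (p : P217.E0 p n) ^ N ≠ 0 := pow_ne_zero _ p_ne_zero
  have hrange := Gn.range_pi hF
  have hle : H.map Gn.pi ≤ LT.actionGroup p n Γ F := by
    rw [← hrange, MonoidHom.range_eq_map]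
    exact Subgroup.map_mono le_top
  have hrel : (H.map Gn.pi).relIndex (LT.actionGroup p n Γ F) ≠ 0 := by
    rw [← hrange, MonoidHom.range_eq_map, Subgroup.relIndex_map_map, top_sup_eq,
      Subgroup.relIndex_top_right]
    exact ne_zero_of_dvd_ne_zero hi (Subgroup.index_dvd_of_le le_sup_left)
  obtain ⟨m0, y, h1, h2⟩ := split hn hΓ hF hH (H.map Gn.pi) hle hrel N m (by
    rintro φ ⟨g, hg, rfl⟩
    exact ⟨c ⟨g, hg⟩, (hm ⟨g, hg⟩).symm⟩)
  refine ⟨y, fun g => mul_left_cancel₀ hp ?_⟩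
  have h3 : Gn.pi (g : Gn p n F) m0 = m0 := h1 _ ⟨g, g.2, rfl⟩
  rw [hm g]
  calc Gn.pi (g : Gn p n F) m - m
      = Gn.pi (g : Gn p n F) (m0 + (p : P217.E0 p n) ^ N * y) -
          (m0 + (p : P217.E0 p n) ^ N * y) := by rw [← h2]
    _ = _ := by rw [map_add, map_mul, map_pow, map_natCast, h3]; ring

end Vale.Agent.P261.R2.H86
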