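import Vale.Agent.P261.R2.H86.H1Mod
import Vale.Agent.P261.R2.H700.Rat

/-!
# P261: `H¹` is finitely generated if it is rationally finite-dimensional (final form)
-/

namespace Vale.Agent.P261.R2.H86

open Vale.Agent.P217.LT Vale.Agent.P261 Vale.Agent.P261.R2.H700 Topology

variable {p n : ℕ} [Fact p.Prime] {F : FormalGroup (E0 p n)}

theorem rowA : RowA p := fun _ _ _ hC hT d b hb => fg_of_rational hC hT d b hb

theorem h1_fg {H : Subgroup (Gn p n F)} [TopologicalSpace H] {M : Type} [AddCommGroup M]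
    [Module (E0 p n) M] {ρ : H → M → M} (h : IsMoravaModule H M ρ) (hT : H1TorsionFinite H ρ)
    (d : ℕ) (b : Fin d → H → M) (hb : ∀ i, IsCocycle H ρ (b i))
    (hs : ∀ c, IsCocycle H ρ c → ∃ (N : ℕ) (a : Fin d → ℤ_[p]),
      IsCoboundary ρ (p ^ N • c - fun g => ∑ i, zp p n (a i) • b i g)) :
    ∃ (k : ℕ) (e : Fin k → H → M), (∀ i, IsCocycle H ρ (e i)) ∧
      ∀ c, IsCocycle H ρ c → ∃ a : Fin k → ℤ_[p],
        IsCoboundary ρ (c - fun g => ∑ i, zp p n (a i) • e i g) :=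
  H1_fg_of rowA h hT d b hb hs

end Vale.Agent.P261.R2.H86
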